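import Mathlib

/-!
# S0423, module C1: the one-parameter calculus bound

For every `c > 0`,
`(4/9) e^{-1/3} ≤ ∫_{s>0} min(1, exp(-1 + (4/3 - s)/c)) · s e^{-s} ds`.
-/

namespace Crest.Agent.Helper25

open MeasureTheory Set Filter Topology

/-- Integrability and value of `∫_{s>a} s e^{-βs} ds` for `β > 0`, `a ≥ 0`. -/
theorem weight_Ioi (β : ℝ) (hβ : 0 < β) (a : ℝ) (ha : 0 ≤ a) :
    IntegrableOn (fun s : ℝ => s * Real.exp (-(β * s))) (Ioi a) ∧
      ∫ s in Ioi a, s * Real.exp (-(β * s)) = (a / β + 1 / β ^ 2) * Real.exp (-(β * a)) := by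
  set G : ℝ → ℝ := fun s => -((s / β + 1 / β ^ 2) * Real.exp (-(β * s))) with hG
  have hderiv : ∀ x ∈ Ici a, HasDerivAt G (x * Real.exp (-(β * x))) x := by
    intro x _
    have h1 : HasDerivAt (fun s : ℝ => s / β + 1 / β ^ 2) (1 / β) x := by
      simpa using ((hasDerivAt_id x).div_const β).add_const (1 / β ^ 2)
    have h0 : HasDerivAt (fun s : ℝ => -(β * s)) (-β) x := by
      have := ((hasDerivAt_id x).const_mul β).fun_neg
      simpa using this
    have h2 : HasDerivAt (fun s : ℝ => Real.exp (-(β * s))) (Real.exp (-(β * x)) * (-β)) x :=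
      h0.exp
    have h3 := (h1.fun_mul h2).fun_neg
    have e : x * Real.exp (-(β * x)) =
        -(1 / β * Real.exp (-(β * x)) + (x / β + 1 / β ^ 2) * (Real.exp (-(β * x)) * -β)) := by
      field_simp
      ring
    rw [e]
    exact h3
  have hlim : Tendsto G atTop (𝓝 0) := by
    have t1 := tendsto_rpow_mul_exp_neg_mul_atTop_nhds_zero 1 β hβ
    have t0 := tendsto_rpow_mul_exp_neg_mul_atTop_nhds_zero 0 β hβ
    have key : Tendsto (fun x : ℝ => -((1 / β) * (x ^ (1:ℝ) * Real.exp (-β * x))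
        + (1 / β ^ 2) * (x ^ (0:ℝ) * Real.exp (-β * x)))) atTop (𝓝 0) := by
      have := ((t1.const_mul (1 / β)).add (t0.const_mul (1 / β ^ 2))).neg
      simpa using this
    refine key.congr' ?_
    filter_upwards with x
    simp only [hG, Real.rpow_one, Real.rpow_zero]
    ring_nf
  have hint : IntegrableOn (fun s : ℝ => s * Real.exp (-(β * s))) (Ioi a) :=
    integrableOn_Ioi_deriv_of_nonneg' hderiv
      (fun x hx => mul_nonneg (ha.trans hx.out.le) (Real.exp_pos _).le) hlim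
  refine ⟨hint, ?_⟩
  rw [integral_Ioi_of_hasDerivAt_of_tendsto' hderiv hint hlim]
  simp [hG]

/-- The case `β = 1`. -/
theorem weight_one_Ioi (a : ℝ) (ha : 0 ≤ a) :
    IntegrableOn (fun s : ℝ => s * Real.exp (-s)) (Ioi a) ∧
      ∫ s in Ioi a, s * Real.exp (-s) = (a + 1) * Real.exp (-a) := by
  have := weight_Ioi 1 one_pos a ha
  simpa using this

/-- Closed form of the one-parameter integral, with the break point `s0` as a parameter
(`s0 = 0` when `c ≥ 4/3`, `s0 = 4/3 - c` when `c < 4/3`). -/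
theorem J_eq (c : ℝ) (hc : 0 < c) (s0 : ℝ) (hs0 : 0 ≤ s0) (h1 : 4 / 3 - c ≤ s0)
    (h2 : s0 = 0 ∨ s0 ≤ 4 / 3 - c) :
    ∫ s in Ioi (0 : ℝ), min 1 (Real.exp (-1 + (4 / 3 - s) / c)) * (s * Real.exp (-s)) =
      (1 - (s0 + 1) * Real.exp (-s0)) +
        Real.exp (-1 + 4 / (3 * c)) *
          ((s0 / (1 + 1 / c) + 1 / (1 + 1 / c) ^ 2) * Real.exp (-((1 + 1 / c) * s0))) := by
  have hβ : (0 : ℝ) < 1 + 1 / c := by positivity
  obtain ⟨w0int, w0val⟩ := weight_one_Ioi 0 le_rfl
  obtain ⟨wsint, wsval⟩ := weight_one_Ioi s0 hs0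
  obtain ⟨bint, bval⟩ := weight_Ioi (1 + 1 / c) hβ s0 hs0
  have hcont : Continuous
      (fun s : ℝ => min 1 (Real.exp (-1 + (4 / 3 - s) / c)) * (s * Real.exp (-s))) := by
    fun_prop
  have fint : IntegrableOn
      (fun s : ℝ => min 1 (Real.exp (-1 + (4 / 3 - s) / c)) * (s * Real.exp (-s))) (Ioi 0) := by
    refine Integrable.mono' w0int hcont.aestronglyMeasurable ?_
    refine (ae_restrict_iff' measurableSet_Ioi).2 (Filter.Eventually.of_forall fun s hs => ?_)
    have hs' : 0 < s := hs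
    have hw : 0 ≤ s * Real.exp (-s) := mul_nonneg hs'.le (Real.exp_pos _).le
    have hm0 : 0 ≤ min 1 (Real.exp (-1 + (4 / 3 - s) / c)) :=
      le_min zero_le_one (Real.exp_pos _).le
    rw [Real.norm_eq_abs, abs_of_nonneg (mul_nonneg hm0 hw)]
    calc min 1 (Real.exp (-1 + (4 / 3 - s) / c)) * (s * Real.exp (-s))
        ≤ 1 * (s * Real.exp (-s)) := mul_le_mul_of_nonneg_right (min_le_left _ _) hw
      _ = s * Real.exp (-s) := one_mul _
  have hsplit : ∫ s in Ioi (0 : ℝ), min 1 (Real.exp (-1 + (4 / 3 - s) / c)) * (s * Real.exp (-s)) =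
      (∫ s in Ioc 0 s0, min 1 (Real.exp (-1 + (4 / 3 - s) / c)) * (s * Real.exp (-s))) +
        ∫ s in Ioi s0, min 1 (Real.exp (-1 + (4 / 3 - s) / c)) * (s * Real.exp (-s)) := by
    rw [← Ioc_union_Ioi_eq_Ioi hs0]
    exact setIntegral_union (Ioc_disjoint_Ioi le_rfl) measurableSet_Ioi
      (fint.mono_set Ioc_subset_Ioi_self) (fint.mono_set (Ioi_subset_Ioi hs0))
  have hwsplit : ∫ s in Ioi (0 : ℝ), s * Real.exp (-s) =
      (∫ s in Ioc 0 s0, s * Real.exp (-s)) + ∫ s in Ioi s0, s * Real.exp (-s) := by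
    rw [← Ioc_union_Ioi_eq_Ioi hs0]
    exact setIntegral_union (Ioc_disjoint_Ioi le_rfl) measurableSet_Ioi
      (w0int.mono_set Ioc_subset_Ioi_self) wsint
  have hleft : ∫ s in Ioc 0 s0, min 1 (Real.exp (-1 + (4 / 3 - s) / c)) * (s * Real.exp (-s)) =
      ∫ s in Ioc 0 s0, s * Real.exp (-s) := by
    refine setIntegral_congr_fun measurableSet_Ioc fun s hs => ?_
    have hs1 : 0 < s := hs.1
    have hs2 : s ≤ s0 := hs.2
    have hle : s ≤ 4 / 3 - c := by
      rcases h2 with h | h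
      · linarith
      · linarith
    have h1le : (1 : ℝ) ≤ Real.exp (-1 + (4 / 3 - s) / c) := by
      apply Real.one_le_exp
      have : 1 ≤ (4 / 3 - s) / c := by rw [le_div_iff₀ hc]; linarith
      linarith
    simp only [min_eq_left h1le, one_mul]
  have hright : ∫ s in Ioi s0, min 1 (Real.exp (-1 + (4 / 3 - s) / c)) * (s * Real.exp (-s)) =
      ∫ s in Ioi s0, Real.exp (-1 + 4 / (3 * c)) * (s * Real.exp (-((1 + 1 / c) * s))) := by
    refine setIntegral_congr_fun measurableSet_Ioi fun s hs => ?_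
    have hs1 : s0 < s := hs
    have hle1 : Real.exp (-1 + (4 / 3 - s) / c) ≤ 1 := by
      apply Real.exp_le_one_iff.2
      have : (4 / 3 - s) / c ≤ 1 := by rw [div_le_iff₀ hc]; linarith
      linarith
    simp only [min_eq_right hle1]
    have e : Real.exp (-1 + (4 / 3 - s) / c) * Real.exp (-s) =
        Real.exp (-1 + 4 / (3 * c)) * Real.exp (-((1 + 1 / c) * s)) := by
      rw [← Real.exp_add, ← Real.exp_add]
      congr 1
      field_simp
      ring
    calc Real.exp (-1 + (4 / 3 - s) / c) * (s * Real.exp (-s))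
        = s * (Real.exp (-1 + (4 / 3 - s) / c) * Real.exp (-s)) := by ring
      _ = s * (Real.exp (-1 + 4 / (3 * c)) * Real.exp (-((1 + 1 / c) * s))) := by rw [e]
      _ = _ := by ring
  have hw : ∫ s in Ioc 0 s0, s * Real.exp (-s) = 1 - (s0 + 1) * Real.exp (-s0) := by
    rw [w0val, wsval] at hwsplit
    simp at hwsplit
    linarith
  rw [hsplit, hleft, hright, integral_const_mul, bval, hw]

/-- **Module C1 of S0423.**  For every `c > 0` the shifted exponential survival function with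
mean `4/3` and scale `c` satisfies the generalised Grünbaum bound. -/
theorem calc_bound (c : ℝ) (hc : 0 < c) :
    4 / 9 * Real.exp (-(1 / 3)) ≤
      ∫ s in Set.Ioi (0 : ℝ), min 1 (Real.exp (-1 + (4 / 3 - s) / c)) * (s * Real.exp (-s)) := by
  have hβ : (0 : ℝ) < 1 + 1 / c := by positivity
  rcases le_or_gt (4 / 3) c with hc1 | hc1
  · -- case `c ≥ 4/3`: the integral is `e^{-1+4/(3c)} (c/(1+c))^2`
    rw [J_eq c hc 0 le_rfl (by linarith) (Or.inl rfl)]
    have hval : (1 - (0 + 1) * Real.exp (-0)) + Real.exp (-1 + 4 / (3 * c)) *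
        ((0 / (1 + 1 / c) + 1 / (1 + 1 / c) ^ 2) * Real.exp (-((1 + 1 / c) * 0))) =
        Real.exp (-1 + 4 / (3 * c)) * (1 / (1 + 1 / c) ^ 2) := by
      simp
    rw [hval]
    obtain ⟨u, hu⟩ : ∃ u : ℝ, u = 2 / 3 * (1 + 1 / c) := ⟨_, rfl⟩
    have hupos : 0 < u := by rw [hu]; positivity
    have hu1 : u ≤ Real.exp (u - 1) := by
      have := Real.add_one_le_exp (u - 1)
      linarith
    have hexp : Real.exp (-1 + 4 / (3 * c)) = Real.exp (-(1 / 3)) * (Real.exp (u - 1)) ^ 2 := by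
      rw [sq, ← Real.exp_add, ← Real.exp_add]
      congr 1
      rw [hu]
      field_simp
      ring
    have hβu : (1 : ℝ) / (1 + 1 / c) ^ 2 = 4 / 9 / u ^ 2 := by
      rw [hu]
      field_simp
      ring
    rw [hexp, hβu]
    have hsq : u ^ 2 ≤ (Real.exp (u - 1)) ^ 2 := pow_le_pow_left₀ hupos.le hu1 2
    have e1 : 4 / 9 * Real.exp (-(1 / 3)) = Real.exp (-(1 / 3)) * u ^ 2 * (4 / 9 / u ^ 2) := by
      field_simp
    rw [e1]
    have hpos : 0 < Real.exp (-(1 / 3)) := Real.exp_pos _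
    have h49 : (0 : ℝ) ≤ 4 / 9 / u ^ 2 := by positivity
    exact mul_le_mul_of_nonneg_right (mul_le_mul_of_nonneg_left hsq hpos.le) h49
  · -- case `c < 4/3`: the integral is `1 - e^{c-4/3}(7/3+7c/3-c^2)/(1+c)^2 ≥ 16/49`
    obtain ⟨d, hd⟩ : ∃ d : ℝ, d = 4 / 3 - c := ⟨_, rfl⟩
    have hd0 : 0 < d := by linarith
    have hd1 : d < 4 / 3 := by linarith
    have hc' : c = 4 / 3 - d := by linarith
    rw [J_eq c hc d hd0.le hd.ge (Or.inr hd.le)]
    have hexp : Real.exp (-1 + 4 / (3 * c)) * Real.exp (-((1 + 1 / c) * d)) = Real.exp (-d) := by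
      rw [← Real.exp_add]
      congr 1
      rw [hd]
      field_simp
      ring
    have hT : 1 + d + d ^ 2 / 2 + d ^ 3 / 6 ≤ Real.exp d := by
      have := Real.sum_le_exp_of_nonneg hd0.le 4
      simp [Finset.sum_range_succ, Nat.factorial] at this
      linarith
    have hTpos : 0 < 1 + d + d ^ 2 / 2 + d ^ 3 / 6 := by positivity
    have hE : Real.exp (-d) ≤ 1 / (1 + d + d ^ 2 / 2 + d ^ 3 / 6) := by
      rw [Real.exp_neg, ← one_div]
      exact one_div_le_one_div_of_le hTpos hT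
    have h13 : Real.exp (-(1 / 3)) ≤ 36 / 49 := by
      have h := Real.quadratic_le_exp_of_nonneg (x := (1 : ℝ) / 3) (by norm_num)
      rw [Real.exp_neg, inv_le_comm₀ (Real.exp_pos _) (by norm_num)]
      norm_num at h ⊢
      linarith
    have key : (1 - (d + 1) * Real.exp (-d)) + Real.exp (-1 + 4 / (3 * c)) *
        ((d / (1 + 1 / c) + 1 / (1 + 1 / c) ^ 2) * Real.exp (-((1 + 1 / c) * d))) =
        1 - Real.exp (-d) * ((1 + 2 * c + d * (1 + c)) / (1 + c) ^ 2) := by
      have e2 : Real.exp (-1 + 4 / (3 * c)) *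
          ((d / (1 + 1 / c) + 1 / (1 + 1 / c) ^ 2) * Real.exp (-((1 + 1 / c) * d))) =
          (d / (1 + 1 / c) + 1 / (1 + 1 / c) ^ 2) *
            (Real.exp (-1 + 4 / (3 * c)) * Real.exp (-((1 + 1 / c) * d))) := by ring
      rw [e2, hexp]
      field_simp
      ring
    rw [key]
    have hpoly : 1 + 2 * c + d * (1 + c) ≤
        33 / 49 * (1 + c) ^ 2 * (1 + d + d ^ 2 / 2 + d ^ 3 / 6) := by
      have hr : 0 ≤ 168 + 321 * d - 253 * d ^ 2 - 165 * d ^ 3 + 99 * d ^ 4 := by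
        rcases le_or_gt d 1 with h | h
        · nlinarith [mul_nonneg hd0.le (sub_nonneg.2 h),
            mul_nonneg (mul_nonneg hd0.le hd0.le) (sub_nonneg.2 h), pow_nonneg hd0.le 4]
        · have ht0 : 0 ≤ d - 1 := by linarith
          have ht1 : d - 1 ≤ 1 / 3 := by linarith
          nlinarith [mul_nonneg ht0 (sub_nonneg.2 ht1), pow_nonneg ht0 3, pow_nonneg ht0 4,
            mul_nonneg ht0 ht0]
      have e3 : 33 / 49 * (1 + c) ^ 2 * (1 + d + d ^ 2 / 2 + d ^ 3 / 6) -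
          (1 + 2 * c + d * (1 + c)) =
          d * (168 + 321 * d - 253 * d ^ 2 - 165 * d ^ 3 + 99 * d ^ 4) / 882 := by
        rw [hc']
        ring
      have := mul_nonneg hd0.le hr
      linarith
    have hc1pos : (0 : ℝ) < (1 + c) ^ 2 := by positivity
    have hP : 0 ≤ (1 + 2 * c + d * (1 + c)) / (1 + c) ^ 2 := by positivity
    have hb : Real.exp (-d) * ((1 + 2 * c + d * (1 + c)) / (1 + c) ^ 2) ≤ 33 / 49 := by
      calc Real.exp (-d) * ((1 + 2 * c + d * (1 + c)) / (1 + c) ^ 2)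
          ≤ 1 / (1 + d + d ^ 2 / 2 + d ^ 3 / 6) * ((1 + 2 * c + d * (1 + c)) / (1 + c) ^ 2) :=
            mul_le_mul_of_nonneg_right hE hP
        _ = (1 + 2 * c + d * (1 + c)) / ((1 + c) ^ 2 * (1 + d + d ^ 2 / 2 + d ^ 3 / 6)) := by
            field_simp
        _ ≤ 33 / 49 := by
            rw [div_le_iff₀ (by positivity)]
            linarith
    linarith

end Crest.Agent.Helper25
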